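import Vale.Agent.Results.P064.A0000000000AllBounds6
import Vale.Agent.Lib.P064d.CoreDeg2

/-!
Twelve bounds for `p_c(n,H)`, for all graphs `H` with at most `n` vertices and at least one edge:
the first eleven are those of `A0000000000AllBounds6`. New here:
(12) if `n q^m ≥ 1` and `p_E ≤ q ≤ 1`, then `p_c ≤ C q log n ((log n + 4) D)^(4 log(1/q) / log n)`
where `D` bounds only the degrees inside a set containing the `(m+1)`-core.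
-/

namespace Vale.Agent.Results.P064.A00000000000AllBounds7

open Vale.Agent.Lib.P064 Vale.Agent.Lib.P064d

theorem result :
    (∃ C : ℝ, 0 < C ∧ ∀ (n : ℕ) (V : Type) [Fintype V] (H : SimpleGraph V),
      2 ≤ n → Fintype.card V ≤ n → 1 ≤ numEdges H →
      pCrit n H ≤ C * (Real.log n) ^ ((3 : ℝ) / 2) * (Real.log (Real.log n + 2)) ^ 3 * pExp n H) ∧
    (∃ C : ℝ, 0 < C ∧ ∀ (n : ℕ) (V : Type) [Fintype V] (H : SimpleGraph V) (q : ℝ),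
      2 ≤ n → Fintype.card V ≤ n → 1 ≤ numEdges H → pExp n H ≤ q → q ≤ 1 →
      pCrit n H ≤ C * q * Real.log n * Real.exp (19 * (Real.log q) ^ 2 / Real.log n)) ∧
    (∀ A : ℝ, 0 < A → ∃ C : ℝ, 0 < C ∧ ∀ (n : ℕ) (V : Type) [Fintype V] (H : SimpleGraph V),
      2 ≤ n → Fintype.card V ≤ n → 1 ≤ numEdges H →
      Real.exp (-(A * Real.sqrt (Real.log n))) ≤ pExp n H →
      pCrit n H ≤ C * pExp n H * Real.log n) ∧
    (∃ C : ℝ, 0 < C ∧ ∀ (n : ℕ) (V : Type) [Fintype V] (H : SimpleGraph V),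
      2 ≤ n → Fintype.card V ≤ n → 1 ≤ numEdges H →
      ∀ m : ℕ, m = Nat.log 2 (2 * (Nat.log 2 n + 1)) + 1 →
      (∀ q : ℝ, pExp n H ≤ q → (m : ℝ) ≤ n * q → (3 * (n : ℝ) * q) ^ (2 * m) < n →
        pCrit n H ≤ C * q * Real.log n) ∧
      ((3 * (n : ℝ) * pExp n H) ^ (2 * m) < n →
        pCrit n H ≤ C * Real.log n *
          min (max 1 ((n : ℝ) * pExp n H)) (max 1 ((m : ℝ) / ((n : ℝ) * pExp n H))) * pExp n H ∧
        pCrit n H ≤ C * Real.log n * Real.sqrt m * pExp n H)) ∧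
    (∃ C : ℝ, 0 < C ∧ ∀ (E : ℕ) (δ θ' : ℝ), 2 ≤ E → 0 < δ → δ ≤ 1 →
      0 < θ' → θ' ≤ 1 / 2 → ∀ (n : ℕ) (V : Type) [Fintype V] (H : SimpleGraph V) (q : ℝ),
      2 ≤ n → Fintype.card V ≤ n → 1 ≤ numEdges H → 2 * pExp n H ≤ q → 1 / (n : ℝ) ≤ q →
      (∀ s e : ℕ, 1 ≤ s → s ≤ e → e < E →
        θ' * Real.log n ≤ |(s : ℝ) * Real.log n - (e : ℝ) * Real.log (1 / q)|) →
      pCrit n H ≤ C * ((E : ℝ) + 1 / δ) * (1 / θ') ^ 2 * (Real.log n) ^ (1 + 1 / (E : ℝ) + δ) * q) ∧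
    (∃ C : ℝ, 0 < C ∧ ∀ (n : ℕ) (V : Type) [Fintype V] (H : SimpleGraph V) (K : ℕ)
      (cl : Sym2 V → Fin K),
      2 ≤ n → Fintype.card V ≤ n → 1 ≤ numEdges H →
      (∀ a b : Sym2 V, a ∈ H.edgeSet → b ∈ H.edgeSet → cl a = cl b →
        ∃ aut : SimpleGraph.Iso H H, (∀ c : Sym2 V, c ∈ H.edgeSet → cl (Sym2.map aut c) = cl c) ∧ Sym2.map aut a = b) →
      pCrit n H ≤ C * (K : ℝ) * pExp n H * Real.log n) ∧
    (∃ C : ℝ, 0 < C ∧ ∀ (n : ℕ) (V : Type) [Fintype V] (H : SimpleGraph V) (q : ℝ) (D : ℕ),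
      2 ≤ n → Fintype.card V ≤ n → 1 ≤ numEdges H → pExp n H ≤ q → q ≤ 1 → 1 ≤ D →
      (∀ u, (H.neighborSet u).ncard ≤ D) →
      pCrit n H ≤ C * q * Real.log n * (D : ℝ) ^ (4 * (-Real.log q) / Real.log n)) ∧
    (∃ C : ℝ, 0 < C ∧ ∀ (n : ℕ) (V : Type) [Fintype V] (H : SimpleGraph V) (D k : ℕ) (S : Set V),
      2 ≤ n → Fintype.card V ≤ n → 1 ≤ numEdges H → 1 ≤ D → 1 ≤ k → S.Nonempty →
      (∀ u, (H.neighborSet u).ncard ≤ D) → (∀ u ∈ S, k ≤ (S ∩ H.neighborSet u).ncard) →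
      pCrit n H ≤ C * (D : ℝ) ^ ((8 : ℝ) / k) * pExp n H * Real.log n) ∧
    (∃ C : ℝ, 0 < C ∧ ∀ (n : ℕ) (V : Type) [Fintype V] (H : SimpleGraph V) (D : ℕ),
      2 ≤ n → Fintype.card V ≤ n → 1 ≤ numEdges H → (∀ u, (H.neighborSet u).ncard = D) →
      pCrit n H ≤ C * pExp n H * Real.log n) ∧
    (∃ C : ℝ, 0 < C ∧ ∀ (n : ℕ) (V : Type) [Fintype V] (H : SimpleGraph V) (q : ℝ) (k D : ℕ)
      (S : Set V),
      2 ≤ n → Fintype.card V ≤ n → 1 ≤ numEdges H → pExp n H ≤ q → q ≤ 1 → 1 ≤ k → 1 ≤ D →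
      ((k : ℝ) - 1) * (2 * (-Real.log q)) < Real.log n →
      (∀ W : Set V, (∀ u ∈ W, k ≤ (W ∩ H.neighborSet u).ncard) → W ⊆ S) →
      (∀ u ∈ S, (S ∩ H.neighborSet u).ncard ≤ D) →
      pCrit n H ≤ C * q * Real.log n * (D : ℝ) ^ (4 * (-Real.log q) / Real.log n)) ∧
    (∃ C : ℝ, 0 < C ∧ ∀ (n : ℕ) (V : Type) [Fintype V] (H : SimpleGraph V) (q : ℝ) (k : ℕ),
      2 ≤ n → Fintype.card V ≤ n → 1 ≤ numEdges H → pExp n H ≤ q → q ≤ 1 → 1 ≤ k →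
      ((k : ℝ) - 1) * (2 * (-Real.log q)) < Real.log n →
      (∀ W : Set V, W.Nonempty → ∃ u ∈ W, (W ∩ H.neighborSet u).ncard < k) →
      pCrit n H ≤ C * q * Real.log n) ∧
    (∃ C : ℝ, 0 < C ∧ ∀ (n : ℕ) (V : Type) [Fintype V] (H : SimpleGraph V) (q : ℝ) (m D : ℕ)
      (S : Set V),
      2 ≤ n → Fintype.card V ≤ n → 1 ≤ numEdges H → pExp n H ≤ q → q ≤ 1 → 1 ≤ D →
      1 ≤ (n : ℝ) * q ^ m →
      (∀ W : Set V, (∀ u ∈ W, m + 1 ≤ (W ∩ H.neighborSet u).ncard) → W ⊆ S) →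
      (∀ u ∈ S, (S ∩ H.neighborSet u).ncard ≤ D) →
      pCrit n H ≤ C * q * Real.log n *
        ((Real.log n + 4) * (D : ℝ)) ^ (4 * (-Real.log q) / Real.log n)) := by
  obtain ⟨h1, h2, h3, h4, h5, h6, h7, h8, h9, h10, h11⟩ :=
    Vale.Agent.Results.P064.A0000000000AllBounds6.result
  refine ⟨h1, h2, h3, h4, h5, h6, h7, h8, h9, h10, h11, ⟨419904, by norm_num, ?_⟩⟩
  intro n V _ H q m D S hn hV hE hq hq1 hD hm hW hdeg
  have hD0 : (0 : ℝ) < D := by exact_mod_cast hD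
  have hN2 : Real.log 2 ≤ Real.log n :=
    Real.log_le_log (by norm_num) (by exact_mod_cast hn)
  have hl2 := Real.log_two_gt_d9
  have hN4 : 0 < Real.log n + 4 := by linarith
  have h := pCrit_kcore3 (H := H) hn hV hE hq hq1 hm hW hdeg hD
  rw [Real.rpow_def_of_pos (mul_pos hN4 hD0), Real.log_mul hN4.ne' hD0.ne']
  have he : (Real.log (Real.log n + 4) + Real.log D) * (4 * (-Real.log q) / Real.log n) =
      (4 * Real.log D + 4 * Real.log (Real.log n + 4)) * (-Real.log q) / Real.log n := by ring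
  rw [he]
  exact h

end Vale.Agent.Results.P064.A00000000000AllBounds7
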