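import Vale.Agent.Results.P064.A000000000AllBounds5
import Vale.Agent.Lib.P064d.CoreDeg

/-!
Eleven bounds for `p_c(n,H)`, for all graphs `H` with at most `n` vertices and at least one edge:
the first nine are those of `A000000000AllBounds5`. New here:
(10) the bound with the factor `D^(4 log(1/q) / log n)` where `D` bounds only the degrees inside a set
containing the `k`-core, if `(k - 1) 2 log(1/q) < log n`;
(11) `p_c ≤ C q log n` if `H` is `(k - 1)`-degenerate and `(k - 1) 2 log(1/q) < log n`.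
-/

namespace Vale.Agent.Results.P064.A0000000000AllBounds6

open Vale.Agent.Lib.P064 Vale.Agent.Lib.P064d

theorem result :
    (∃ C : ℝ, 0 < C ∧ ∀ (n : ℕ) (V : Type) [Fintype V] (H : SimpleGraph V),
      2 ≤ n → Fintype.card V ≤ n → 1 ≤ numEdges H →
      pCrit n H ≤ C * (Real.log n) ^ ((3 : ℝ) / 2) * (Real.log (Real.log n + 2)) ^ 3 * pExp n H) ∧
    (∃ C : ℝ, 0 < C ∧ ∀ (n : ℕ) (V : Type) [Fintype V] (H : SimpleGraph V) (q : ℝ),
      2 ≤ n → Fintype.card V ≤ n → 1 ≤ numEdges H → pExp n H ≤ q → q ≤ 1 →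
      pCrit n H ≤ C * q * Real.log n * Real.exp (19 * (Real.log q) ^ 2 / Real.log n)) ∧
    (∀ A : ℝ, 0 < A → ∃ C : ℝ, 0 < C ∧ ∀ (n : ℕ) (V : Type) [Fintype V] (H : SimpleGraph V),
      2 ≤ n → Fintype.card V ≤ n → 1 ≤ numEdges H →
      Real.exp (-(A * Real.sqrt (Real.log n))) ≤ pExp n H →
      pCrit n H ≤ C * pExp n H * Real.log n) ∧
    (∃ C : ℝ, 0 < C ∧ ∀ (n : ℕ) (V : Type) [Fintype V] (H : SimpleGraph V),
      2 ≤ n → Fintype.card V ≤ n → 1 ≤ numEdges H →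
      ∀ m : ℕ, m = Nat.log 2 (2 * (Nat.log 2 n + 1)) + 1 →
      (∀ q : ℝ, pExp n H ≤ q → (m : ℝ) ≤ n * q → (3 * (n : ℝ) * q) ^ (2 * m) < n →
        pCrit n H ≤ C * q * Real.log n) ∧
      ((3 * (n : ℝ) * pExp n H) ^ (2 * m) < n →
        pCrit n H ≤ C * Real.log n *
          min (max 1 ((n : ℝ) * pExp n H)) (max 1 ((m : ℝ) / ((n : ℝ) * pExp n H))) * pExp n H ∧
        pCrit n H ≤ C * Real.log n * Real.sqrt m * pExp n H)) ∧
    (∃ C : ℝ, 0 < C ∧ ∀ (E : ℕ) (δ θ' : ℝ), 2 ≤ E → 0 < δ → δ ≤ 1 →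
      0 < θ' → θ' ≤ 1 / 2 → ∀ (n : ℕ) (V : Type) [Fintype V] (H : SimpleGraph V) (q : ℝ),
      2 ≤ n → Fintype.card V ≤ n → 1 ≤ numEdges H → 2 * pExp n H ≤ q → 1 / (n : ℝ) ≤ q →
      (∀ s e : ℕ, 1 ≤ s → s ≤ e → e < E →
        θ' * Real.log n ≤ |(s : ℝ) * Real.log n - (e : ℝ) * Real.log (1 / q)|) →
      pCrit n H ≤ C * ((E : ℝ) + 1 / δ) * (1 / θ') ^ 2 * (Real.log n) ^ (1 + 1 / (E : ℝ) + δ) * q) ∧
    (∃ C : ℝ, 0 < C ∧ ∀ (n : ℕ) (V : Type) [Fintype V] (H : SimpleGraph V) (K : ℕ)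
      (cl : Sym2 V → Fin K),
      2 ≤ n → Fintype.card V ≤ n → 1 ≤ numEdges H →
      (∀ a b : Sym2 V, a ∈ H.edgeSet → b ∈ H.edgeSet → cl a = cl b →
        ∃ aut : SimpleGraph.Iso H H, (∀ c : Sym2 V, c ∈ H.edgeSet → cl (Sym2.map aut c) = cl c) ∧ Sym2.map aut a = b) →
      pCrit n H ≤ C * (K : ℝ) * pExp n H * Real.log n) ∧
    (∃ C : ℝ, 0 < C ∧ ∀ (n : ℕ) (V : Type) [Fintype V] (H : SimpleGraph V) (q : ℝ) (D : ℕ),
      2 ≤ n → Fintype.card V ≤ n → 1 ≤ numEdges H → pExp n H ≤ q → q ≤ 1 → 1 ≤ D →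
      (∀ u, (H.neighborSet u).ncard ≤ D) →
      pCrit n H ≤ C * q * Real.log n * (D : ℝ) ^ (4 * (-Real.log q) / Real.log n)) ∧
    (∃ C : ℝ, 0 < C ∧ ∀ (n : ℕ) (V : Type) [Fintype V] (H : SimpleGraph V) (D k : ℕ) (S : Set V),
      2 ≤ n → Fintype.card V ≤ n → 1 ≤ numEdges H → 1 ≤ D → 1 ≤ k → S.Nonempty →
      (∀ u, (H.neighborSet u).ncard ≤ D) → (∀ u ∈ S, k ≤ (S ∩ H.neighborSet u).ncard) →
      pCrit n H ≤ C * (D : ℝ) ^ ((8 : ℝ) / k) * pExp n H * Real.log n) ∧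
    (∃ C : ℝ, 0 < C ∧ ∀ (n : ℕ) (V : Type) [Fintype V] (H : SimpleGraph V) (D : ℕ),
      2 ≤ n → Fintype.card V ≤ n → 1 ≤ numEdges H → (∀ u, (H.neighborSet u).ncard = D) →
      pCrit n H ≤ C * pExp n H * Real.log n) ∧
    (∃ C : ℝ, 0 < C ∧ ∀ (n : ℕ) (V : Type) [Fintype V] (H : SimpleGraph V) (q : ℝ) (k D : ℕ)
      (S : Set V),
      2 ≤ n → Fintype.card V ≤ n → 1 ≤ numEdges H → pExp n H ≤ q → q ≤ 1 → 1 ≤ k → 1 ≤ D →
      ((k : ℝ) - 1) * (2 * (-Real.log q)) < Real.log n →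
      (∀ W : Set V, (∀ u ∈ W, k ≤ (W ∩ H.neighborSet u).ncard) → W ⊆ S) →
      (∀ u ∈ S, (S ∩ H.neighborSet u).ncard ≤ D) →
      pCrit n H ≤ C * q * Real.log n * (D : ℝ) ^ (4 * (-Real.log q) / Real.log n)) ∧
    (∃ C : ℝ, 0 < C ∧ ∀ (n : ℕ) (V : Type) [Fintype V] (H : SimpleGraph V) (q : ℝ) (k : ℕ),
      2 ≤ n → Fintype.card V ≤ n → 1 ≤ numEdges H → pExp n H ≤ q → q ≤ 1 → 1 ≤ k →
      ((k : ℝ) - 1) * (2 * (-Real.log q)) < Real.log n →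
      (∀ W : Set V, W.Nonempty → ∃ u ∈ W, (W ∩ H.neighborSet u).ncard < k) →
      pCrit n H ≤ C * q * Real.log n) := by
  obtain ⟨h1, h2, h3, h4, h5, h6, h7, h8, h9⟩ := Vale.Agent.Results.P064.A000000000AllBounds5.result
  refine ⟨h1, h2, h3, h4, h5, h6, h7, h8, h9, ⟨419904, by norm_num, ?_⟩, ⟨419904, by norm_num, ?_⟩⟩
  · intro n V _ H q k D S hn hV hE hq hq1 hk hD hkq hW hdeg
    have hD0 : (0 : ℝ) < D := by exact_mod_cast hD
    have h := pCrit_kcore (H := H) hn hV hE hq hq1 hk hkq hW hdeg hD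
    rw [Real.rpow_def_of_pos hD0]
    have he : Real.log D * (4 * (-Real.log q) / Real.log n) =
        4 * Real.log D * (-Real.log q) / Real.log n := by ring
    rw [he]
    exact h
  · intro n V _ H q k hn hV hE hq hq1 hk hkq hdeg
    have h := pCrit_kcore (H := H) (S := ∅) (Δ := 1) hn hV hE hq hq1 hk hkq
      (fun W hw => by
        rw [Set.subset_empty_iff, ← Set.not_nonempty_iff_eq_empty]
        intro hne
        obtain ⟨u, hu, hlt⟩ := hdeg W hne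
        exact absurd (hw u hu) (not_le.mpr hlt))
      (fun u hu => absurd hu (Set.notMem_empty u)) le_rfl
    simpa using h

end Vale.Agent.Results.P064.A0000000000AllBounds6
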