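import Vale.Agent.Results.P064.A00000000AllBounds4
import Vale.Agent.Lib.P064d.Deg

/-!
Nine bounds for `p_c(n,H)`, for all graphs `H` with at most `n` vertices and at least one edge:
the first six are those of `A00000000AllBounds4`. New here, in terms of the maximum degree `D`:
(7) `p_c ≤ C q log n D^(4 log(1/q) / log n)` for `p_E ≤ q ≤ 1`;
(8) `p_c ≤ C D^(8/k) p_E log n` if some nonempty vertex set `S` induces minimum degree at least `k`;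
(9) `p_c ≤ C p_E log n` for every regular graph `H`.
-/

namespace Vale.Agent.Results.P064.A000000000AllBounds5

open Vale.Agent.Lib.P064 Vale.Agent.Lib.P064d

theorem result :
    (∃ C : ℝ, 0 < C ∧ ∀ (n : ℕ) (V : Type) [Fintype V] (H : SimpleGraph V),
      2 ≤ n → Fintype.card V ≤ n → 1 ≤ numEdges H →
      pCrit n H ≤ C * (Real.log n) ^ ((3 : ℝ) / 2) * (Real.log (Real.log n + 2)) ^ 3 * pExp n H) ∧
    (∃ C : ℝ, 0 < C ∧ ∀ (n : ℕ) (V : Type) [Fintype V] (H : SimpleGraph V) (q : ℝ),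
      2 ≤ n → Fintype.card V ≤ n → 1 ≤ numEdges H → pExp n H ≤ q → q ≤ 1 →
      pCrit n H ≤ C * q * Real.log n * Real.exp (19 * (Real.log q) ^ 2 / Real.log n)) ∧
    (∀ A : ℝ, 0 < A → ∃ C : ℝ, 0 < C ∧ ∀ (n : ℕ) (V : Type) [Fintype V] (H : SimpleGraph V),
      2 ≤ n → Fintype.card V ≤ n → 1 ≤ numEdges H →
      Real.exp (-(A * Real.sqrt (Real.log n))) ≤ pExp n H →
      pCrit n H ≤ C * pExp n H * Real.log n) ∧
    (∃ C : ℝ, 0 < C ∧ ∀ (n : ℕ) (V : Type) [Fintype V] (H : SimpleGraph V),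
      2 ≤ n → Fintype.card V ≤ n → 1 ≤ numEdges H →
      ∀ m : ℕ, m = Nat.log 2 (2 * (Nat.log 2 n + 1)) + 1 →
      (∀ q : ℝ, pExp n H ≤ q → (m : ℝ) ≤ n * q → (3 * (n : ℝ) * q) ^ (2 * m) < n →
        pCrit n H ≤ C * q * Real.log n) ∧
      ((3 * (n : ℝ) * pExp n H) ^ (2 * m) < n →
        pCrit n H ≤ C * Real.log n *
          min (max 1 ((n : ℝ) * pExp n H)) (max 1 ((m : ℝ) / ((n : ℝ) * pExp n H))) * pExp n H ∧
        pCrit n H ≤ C * Real.log n * Real.sqrt m * pExp n H)) ∧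
    (∃ C : ℝ, 0 < C ∧ ∀ (E : ℕ) (δ θ' : ℝ), 2 ≤ E → 0 < δ → δ ≤ 1 →
      0 < θ' → θ' ≤ 1 / 2 → ∀ (n : ℕ) (V : Type) [Fintype V] (H : SimpleGraph V) (q : ℝ),
      2 ≤ n → Fintype.card V ≤ n → 1 ≤ numEdges H → 2 * pExp n H ≤ q → 1 / (n : ℝ) ≤ q →
      (∀ s e : ℕ, 1 ≤ s → s ≤ e → e < E →
        θ' * Real.log n ≤ |(s : ℝ) * Real.log n - (e : ℝ) * Real.log (1 / q)|) →
      pCrit n H ≤ C * ((E : ℝ) + 1 / δ) * (1 / θ') ^ 2 * (Real.log n) ^ (1 + 1 / (E : ℝ) + δ) * q) ∧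
    (∃ C : ℝ, 0 < C ∧ ∀ (n : ℕ) (V : Type) [Fintype V] (H : SimpleGraph V) (K : ℕ)
      (cl : Sym2 V → Fin K),
      2 ≤ n → Fintype.card V ≤ n → 1 ≤ numEdges H →
      (∀ a b : Sym2 V, a ∈ H.edgeSet → b ∈ H.edgeSet → cl a = cl b →
        ∃ aut : SimpleGraph.Iso H H, (∀ c : Sym2 V, c ∈ H.edgeSet → cl (Sym2.map aut c) = cl c) ∧ Sym2.map aut a = b) →
      pCrit n H ≤ C * (K : ℝ) * pExp n H * Real.log n) ∧
    (∃ C : ℝ, 0 < C ∧ ∀ (n : ℕ) (V : Type) [Fintype V] (H : SimpleGraph V) (q : ℝ) (D : ℕ),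
      2 ≤ n → Fintype.card V ≤ n → 1 ≤ numEdges H → pExp n H ≤ q → q ≤ 1 → 1 ≤ D →
      (∀ u, (H.neighborSet u).ncard ≤ D) →
      pCrit n H ≤ C * q * Real.log n * (D : ℝ) ^ (4 * (-Real.log q) / Real.log n)) ∧
    (∃ C : ℝ, 0 < C ∧ ∀ (n : ℕ) (V : Type) [Fintype V] (H : SimpleGraph V) (D k : ℕ) (S : Set V),
      2 ≤ n → Fintype.card V ≤ n → 1 ≤ numEdges H → 1 ≤ D → 1 ≤ k → S.Nonempty →
      (∀ u, (H.neighborSet u).ncard ≤ D) → (∀ u ∈ S, k ≤ (S ∩ H.neighborSet u).ncard) →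
      pCrit n H ≤ C * (D : ℝ) ^ ((8 : ℝ) / k) * pExp n H * Real.log n) ∧
    (∃ C : ℝ, 0 < C ∧ ∀ (n : ℕ) (V : Type) [Fintype V] (H : SimpleGraph V) (D : ℕ),
      2 ≤ n → Fintype.card V ≤ n → 1 ≤ numEdges H → (∀ u, (H.neighborSet u).ncard = D) →
      pCrit n H ≤ C * pExp n H * Real.log n) := by
  obtain ⟨h1, h2, h3, h4, h5, h6⟩ := Vale.Agent.Results.P064.A00000000AllBounds4.result
  refine ⟨h1, h2, h3, h4, h5, h6, ⟨419904, by norm_num, ?_⟩, ⟨839808, by norm_num, ?_⟩,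
    ⟨839808 * Real.exp 8, by positivity, ?_⟩⟩
  · intro n V _ H q D hn hV hE hq hq1 hD hdeg
    have hD0 : (0 : ℝ) < D := by exact_mod_cast hD
    have h := pCrit_deg (H := H) hn hV hE hq hq1 (Δ := D)
      (fun u => by rw [← ncard_nbr]; exact hdeg u) hD
    rw [Real.rpow_def_of_pos hD0]
    have he : Real.log D * (4 * (-Real.log q) / Real.log n) =
        4 * Real.log D * (-Real.log q) / Real.log n := by ring
    rw [he]
    exact h
  · intro n V _ H D k S hn hV hE hD hk hS hdeg hSk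
    have hD0 : (0 : ℝ) < D := by exact_mod_cast hD
    have h := pCrit_core hn hV hE (Δ := D) hdeg hD hk hS hSk
    rw [Real.rpow_def_of_pos hD0]
    have he : Real.log D * ((8 : ℝ) / k) = 8 * Real.log D / k := by ring
    rw [he]
    exact h
  · intro n V _ H D hn hV hE hdeg
    exact pCrit_regular hn hV hE hdeg

end Vale.Agent.Results.P064.A000000000AllBounds5
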