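import Vale.Agent.Results.P064.A000000AllBounds2
import Vale.Agent.Lib.P064t.Orb

/-!
Six bounds for `p_c(n,H)`, for all graphs `H` with at most `n` vertices and at least one edge:
(1) the exponent `3/2` for all `H`;
(2) the bound `C q log n exp(19 (log q)^2 / log n)` for all `q ≥ p_E`, and as a consequence
(3) the bound of the first question for `p_E ≥ exp(-A sqrt (log n))`, any fixed `A`;
(4) with `m = ⌊log₂ (2 (⌊log₂ n⌋ + 1))⌋ + 1`: the bound of the first question for `q ≥ p_E`,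
`m ≤ n q`, `(3 n q)^(2 m) < n`, and if `(3 n p_E)^(2 m) < n`, with `a = n p_E`, the bounds
`C (log n) min(max(1, a), max(1, m / a)) p_E` and `C (log n) √m p_E`;
(5) the bound with exponent `1 + 1/E + δ` for `q` away from the densities `n^(-s/e)`, `e < E`;
(6) `p_c ≤ C K p_E log n` if the edges of `H` are split into `K` classes such that the automorphisms
preserving every class act transitively on each class, for instance the `K` orbits of the group of
automorphisms; for `K = 1` this is the bound of the first question for edge transitive `H`.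
-/

namespace Vale.Agent.Results.P064.A00000000AllBounds4

open Vale.Agent.Lib.P064 Vale.Agent.Lib.P064k Vale.Agent.Lib.P064r Vale.Agent.Lib.P064d
  Vale.Agent.Lib.P064c

theorem result :
    (∃ C : ℝ, 0 < C ∧ ∀ (n : ℕ) (V : Type) [Fintype V] (H : SimpleGraph V),
      2 ≤ n → Fintype.card V ≤ n → 1 ≤ numEdges H →
      pCrit n H ≤ C * (Real.log n) ^ ((3 : ℝ) / 2) * (Real.log (Real.log n + 2)) ^ 3 * pExp n H) ∧
    (∃ C : ℝ, 0 < C ∧ ∀ (n : ℕ) (V : Type) [Fintype V] (H : SimpleGraph V) (q : ℝ),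
      2 ≤ n → Fintype.card V ≤ n → 1 ≤ numEdges H → pExp n H ≤ q → q ≤ 1 →
      pCrit n H ≤ C * q * Real.log n * Real.exp (19 * (Real.log q) ^ 2 / Real.log n)) ∧
    (∀ A : ℝ, 0 < A → ∃ C : ℝ, 0 < C ∧ ∀ (n : ℕ) (V : Type) [Fintype V] (H : SimpleGraph V),
      2 ≤ n → Fintype.card V ≤ n → 1 ≤ numEdges H →
      Real.exp (-(A * Real.sqrt (Real.log n))) ≤ pExp n H →
      pCrit n H ≤ C * pExp n H * Real.log n) ∧
    (∃ C : ℝ, 0 < C ∧ ∀ (n : ℕ) (V : Type) [Fintype V] (H : SimpleGraph V),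
      2 ≤ n → Fintype.card V ≤ n → 1 ≤ numEdges H →
      ∀ m : ℕ, m = Nat.log 2 (2 * (Nat.log 2 n + 1)) + 1 →
      (∀ q : ℝ, pExp n H ≤ q → (m : ℝ) ≤ n * q → (3 * (n : ℝ) * q) ^ (2 * m) < n →
        pCrit n H ≤ C * q * Real.log n) ∧
      ((3 * (n : ℝ) * pExp n H) ^ (2 * m) < n →
        pCrit n H ≤ C * Real.log n *
          min (max 1 ((n : ℝ) * pExp n H)) (max 1 ((m : ℝ) / ((n : ℝ) * pExp n H))) * pExp n H ∧
        pCrit n H ≤ C * Real.log n * Real.sqrt m * pExp n H)) ∧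
    (∃ C : ℝ, 0 < C ∧ ∀ (E : ℕ) (δ θ' : ℝ), 2 ≤ E → 0 < δ → δ ≤ 1 →
      0 < θ' → θ' ≤ 1 / 2 → ∀ (n : ℕ) (V : Type) [Fintype V] (H : SimpleGraph V) (q : ℝ),
      2 ≤ n → Fintype.card V ≤ n → 1 ≤ numEdges H → 2 * pExp n H ≤ q → 1 / (n : ℝ) ≤ q →
      (∀ s e : ℕ, 1 ≤ s → s ≤ e → e < E →
        θ' * Real.log n ≤ |(s : ℝ) * Real.log n - (e : ℝ) * Real.log (1 / q)|) →
      pCrit n H ≤ C * ((E : ℝ) + 1 / δ) * (1 / θ') ^ 2 * (Real.log n) ^ (1 + 1 / (E : ℝ) + δ) * q) ∧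
    (∃ C : ℝ, 0 < C ∧ ∀ (n : ℕ) (V : Type) [Fintype V] (H : SimpleGraph V) (K : ℕ)
      (cl : Sym2 V → Fin K),
      2 ≤ n → Fintype.card V ≤ n → 1 ≤ numEdges H →
      (∀ a b : Sym2 V, a ∈ H.edgeSet → b ∈ H.edgeSet → cl a = cl b →
        ∃ aut : SimpleGraph.Iso H H, (∀ c : Sym2 V, c ∈ H.edgeSet → cl (Sym2.map aut c) = cl c) ∧ Sym2.map aut a = b) →
      pCrit n H ≤ C * (K : ℝ) * pExp n H * Real.log n) := by
  obtain ⟨h1, h2, h3, h4, h5⟩ := Vale.Agent.Results.P064.A000000AllBounds2.result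
  refine ⟨h1, h2, h3, h4, h5, 384 * Real.exp 2, by positivity, ?_⟩
  intro n V _ H K cl hn hV hE hcl
  have h := Vale.Agent.Lib.P064t.pCrit_orb hn hV hE cl hcl
  rwa [Fintype.card_fin] at h

end Vale.Agent.Results.P064.A00000000AllBounds4
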