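import Vale.Agent.Lib.P064d.Main
import Vale.Agent.Lib.P064r.Band4
import Vale.Agent.Lib.P064r.Main2
import Vale.Agent.Lib.P064c.Sparse

/-!
Five bounds for `p_c(n,H)`, for all graphs `H` with at most `n` vertices and at least one edge:
(1) the exponent `3/2` for all `H`;
(2) the bound `C q log n exp(19 (log q)^2 / log n)` for all `q ≥ p_E`, and as a consequence
(3) the bound of the first question for `p_E ≥ exp(-A sqrt (log n))`, any fixed `A`;
(4) with `m = ⌊log₂ (2 (⌊log₂ n⌋ + 1))⌋ + 1`: the bound of the first question for `q ≥ p_E`,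
`m ≤ n q`, `(3 n q)^(2 m) < n`, and if `(3 n p_E)^(2 m) < n`, with `a = n p_E`, the bounds
`C (log n) min(max(1, a), max(1, m / a)) p_E` and `C (log n) √m p_E`;
(5) the bound with exponent `1 + 1/E + δ` for `q` away from the densities `n^(-s/e)`, `e < E`.
-/

namespace Vale.Agent.Results.P064.A000000AllBounds2

open Vale.Agent.Lib.P064 Vale.Agent.Lib.P064k Vale.Agent.Lib.P064r Vale.Agent.Lib.P064d
  Vale.Agent.Lib.P064c

theorem result :
    (∃ C : ℝ, 0 < C ∧ ∀ (n : ℕ) (V : Type) [Fintype V] (H : SimpleGraph V),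
      2 ≤ n → Fintype.card V ≤ n → 1 ≤ numEdges H →
      pCrit n H ≤ C * (Real.log n) ^ ((3 : ℝ) / 2) * (Real.log (Real.log n + 2)) ^ 3 * pExp n H) ∧
    (∃ C : ℝ, 0 < C ∧ ∀ (n : ℕ) (V : Type) [Fintype V] (H : SimpleGraph V) (q : ℝ),
      2 ≤ n → Fintype.card V ≤ n → 1 ≤ numEdges H → pExp n H ≤ q → q ≤ 1 →
      pCrit n H ≤ C * q * Real.log n * Real.exp (19 * (Real.log q) ^ 2 / Real.log n)) ∧
    (∀ A : ℝ, 0 < A → ∃ C : ℝ, 0 < C ∧ ∀ (n : ℕ) (V : Type) [Fintype V] (H : SimpleGraph V),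
      2 ≤ n → Fintype.card V ≤ n → 1 ≤ numEdges H →
      Real.exp (-(A * Real.sqrt (Real.log n))) ≤ pExp n H →
      pCrit n H ≤ C * pExp n H * Real.log n) ∧
    (∃ C : ℝ, 0 < C ∧ ∀ (n : ℕ) (V : Type) [Fintype V] (H : SimpleGraph V),
      2 ≤ n → Fintype.card V ≤ n → 1 ≤ numEdges H →
      ∀ m : ℕ, m = Nat.log 2 (2 * (Nat.log 2 n + 1)) + 1 →
      (∀ q : ℝ, pExp n H ≤ q → (m : ℝ) ≤ n * q → (3 * (n : ℝ) * q) ^ (2 * m) < n →
        pCrit n H ≤ C * q * Real.log n) ∧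
      ((3 * (n : ℝ) * pExp n H) ^ (2 * m) < n →
        pCrit n H ≤ C * Real.log n *
          min (max 1 ((n : ℝ) * pExp n H)) (max 1 ((m : ℝ) / ((n : ℝ) * pExp n H))) * pExp n H ∧
        pCrit n H ≤ C * Real.log n * Real.sqrt m * pExp n H)) ∧
    (∃ C : ℝ, 0 < C ∧ ∀ (E : ℕ) (δ θ' : ℝ), 2 ≤ E → 0 < δ → δ ≤ 1 →
      0 < θ' → θ' ≤ 1 / 2 → ∀ (n : ℕ) (V : Type) [Fintype V] (H : SimpleGraph V) (q : ℝ),
      2 ≤ n → Fintype.card V ≤ n → 1 ≤ numEdges H → 2 * pExp n H ≤ q → 1 / (n : ℝ) ≤ q →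
      (∀ s e : ℕ, 1 ≤ s → s ≤ e → e < E →
        θ' * Real.log n ≤ |(s : ℝ) * Real.log n - (e : ℝ) * Real.log (1 / q)|) →
      pCrit n H ≤ C * ((E : ℝ) + 1 / δ) * (1 / θ') ^ 2 * (Real.log n) ^ (1 + 1 / (E : ℝ) + δ) * q) := by
  refine ⟨pCrit_all_loglog, ⟨constD, constD_pos, ?_⟩, ?_, ?_, pCrit_resonance_free⟩
  · intro n V _ H q hn hV hE hqE hq1
    exact pCrit_dense hn hV hE hqE hq1
  · intro A hA
    refine ⟨constD * Real.exp (19 * A ^ 2), mul_pos constD_pos (Real.exp_pos _), ?_⟩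
    intro n V _ H hn hV hE hra
    exact pCrit_dense_range A hA hn hV hE hra
  · have hC := constS_big
    refine ⟨constS, by linarith, ?_⟩
    intro n V _ H hn hV hE m hm
    have hn' : (1 : ℝ) < n := by exact_mod_cast (by omega : 1 < n)
    have hL : 0 < Real.log n := Real.log_pos hn'
    have hn0 : (0 : ℝ) < n := by linarith
    obtain ⟨hp0', _, hp'⟩ := pExp_mem (H := H) hV
    obtain ⟨hp0, _⟩ := hyp_double hV hE hp0' hp'
    constructor
    · intro q hq h1 h2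
      subst hm
      have h3 := pCrit_uni' hn hV hE hq h1 h2
      refine h3.trans ?_
      have hq0 : 0 < q := lt_of_lt_of_le hp0 hq
      have h4 : 0 ≤ q * Real.log n := by positivity
      calc 20736 * constW * q * Real.log n = 20736 * constW * (q * Real.log n) := by ring
        _ ≤ constS * (q * Real.log n) := mul_le_mul_of_nonneg_right constS_ge1 h4
        _ = _ := by ring
    · intro h
      have h1 := pCrit_sparse hn hV hE hm h
      refine ⟨h1, h1.trans ?_⟩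
      have hm1 : 1 ≤ m := by omega
      have h2 := min_le_sqrt (a := (n : ℝ) * pExp n H) (by positivity) hm1
      refine mul_le_mul_of_nonneg_right ?_ hp0.le
      exact mul_le_mul_of_nonneg_left h2 (by positivity)

end Vale.Agent.Results.P064.A000000AllBounds2
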