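import Vale.Agent.Lib.P064d.Main
import Vale.Agent.Lib.P064r.Band4
import Vale.Agent.Lib.P064r.Band3
import Vale.Agent.Lib.P064r.Main2
import Vale.Agent.Lib.P064k.MainUni

/-!
Five bounds for `p_c(n,H)`, for all graphs `H` with at most `n` vertices and at least one edge:
(1) the exponent `3/2` for all `H`;
(2) the bound `C q log n exp(19 (log q)^2 / log n)` for all `q ≥ p_E`, and as a consequence
(2') the bound of the first question for `p_E ≥ exp(-A sqrt (log n))`, any fixed `A`;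
(3) the bound of the first question for `log n / n ≤ q`, `(3 n q)^(2 m) < n`;
(4) the bound for `n p_E ≤ log n`;
(5) the bound with exponent `1 + 1/E + δ` for `q` away from the densities `n^(-s/e)`, `e < E`.
-/

namespace Vale.Agent.Results.P064.A00000AllBounds

open Vale.Agent.Lib.P064 Vale.Agent.Lib.P064k Vale.Agent.Lib.P064r Vale.Agent.Lib.P064d

theorem result :
    (∃ C : ℝ, 0 < C ∧ ∀ (n : ℕ) (V : Type) [Fintype V] (H : SimpleGraph V),
      2 ≤ n → Fintype.card V ≤ n → 1 ≤ numEdges H →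
      pCrit n H ≤ C * (Real.log n) ^ ((3 : ℝ) / 2) * (Real.log (Real.log n + 2)) ^ 3 * pExp n H) ∧
    (∃ C : ℝ, 0 < C ∧ ∀ (n : ℕ) (V : Type) [Fintype V] (H : SimpleGraph V) (q : ℝ),
      2 ≤ n → Fintype.card V ≤ n → 1 ≤ numEdges H → pExp n H ≤ q → q ≤ 1 →
      pCrit n H ≤ C * q * Real.log n * Real.exp (19 * (Real.log q) ^ 2 / Real.log n)) ∧
    (∀ A : ℝ, 0 < A → ∃ C : ℝ, 0 < C ∧ ∀ (n : ℕ) (V : Type) [Fintype V] (H : SimpleGraph V),
      2 ≤ n → Fintype.card V ≤ n → 1 ≤ numEdges H →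
      Real.exp (-(A * Real.sqrt (Real.log n))) ≤ pExp n H →
      pCrit n H ≤ C * pExp n H * Real.log n) ∧
    (∃ C : ℝ, 0 < C ∧ ∀ (n : ℕ) (V : Type) [Fintype V] (H : SimpleGraph V) (q : ℝ),
      2 ≤ n → Fintype.card V ≤ n → 1 ≤ numEdges H → pExp n H ≤ q → Real.log n / n ≤ q →
      (3 * (n : ℝ) * q) ^ (2 * (Nat.log 2 (2 * (Nat.log 2 n + 1)) + 1)) < n →
      pCrit n H ≤ C * q * Real.log n) ∧
    (∃ C : ℝ, 0 < C ∧ ∀ (n : ℕ) (V : Type) [Fintype V] (H : SimpleGraph V),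
      2 ≤ n → Fintype.card V ≤ n → 1 ≤ numEdges H →
      (n : ℝ) * pExp n H ≤ Real.log n →
      pCrit n H ≤ C * Real.log n *
        min (max 1 ((n : ℝ) * pExp n H)) (Real.log n / ((n : ℝ) * pExp n H)) * pExp n H) ∧
    (∃ C : ℝ, 0 < C ∧ ∀ (E : ℕ) (δ θ' : ℝ), 2 ≤ E → 0 < δ → δ ≤ 1 →
      0 < θ' → θ' ≤ 1 / 2 → ∀ (n : ℕ) (V : Type) [Fintype V] (H : SimpleGraph V) (q : ℝ),
      2 ≤ n → Fintype.card V ≤ n → 1 ≤ numEdges H → 2 * pExp n H ≤ q → 1 / (n : ℝ) ≤ q →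
      (∀ s e : ℕ, 1 ≤ s → s ≤ e → e < E →
        θ' * Real.log n ≤ |(s : ℝ) * Real.log n - (e : ℝ) * Real.log (1 / q)|) →
      pCrit n H ≤ C * ((E : ℝ) + 1 / δ) * (1 / θ') ^ 2 * (Real.log n) ^ (1 + 1 / (E : ℝ) + δ) * q) := by
  refine ⟨pCrit_all_loglog, ⟨constD, constD_pos, ?_⟩, ?_, ?_, ?_, pCrit_resonance_free⟩
  · intro n V _ H q hn hV hE hqE hq1
    exact pCrit_dense hn hV hE hqE hq1
  · intro A hA
    refine ⟨constD * Real.exp (19 * A ^ 2), mul_pos constD_pos (Real.exp_pos _), ?_⟩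
    intro n V _ H hn hV hE hra
    exact pCrit_dense_range A hA hn hV hE hra
  · refine ⟨20736 * constU, ?_, ?_⟩
    · have := constU_ge
      linarith
    · intro n V _ H q hn hV hE hqE hq1 hnum
      exact pCrit_uni hn hV hE hqE hq1 hnum
  · exact ⟨constLow, constLow_pos, fun _ _ _ _ hn hV hE hA => pCrit_low hn hV hE hA⟩

end Vale.Agent.Results.P064.A00000AllBounds
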