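import Vale.Agent.Lib.P064r.Band4

/-!
For every graph `H` with at most `n` vertices and at least one edge,
`p_c(n,H) ≤ C (log n)^{3/2} (log log n)^3 p_E(n,H)`, with `C` universal.
-/

namespace Vale.Agent.Results.P064.A0000AllGraphsLogLog

open Vale.Agent.Lib.P064 Vale.Agent.Lib.P064r

theorem result : ∃ C : ℝ, 0 < C ∧
    ∀ (n : ℕ) (V : Type) [Fintype V] (H : SimpleGraph V),
    2 ≤ n → Fintype.card V ≤ n → 1 ≤ numEdges H →
    pCrit n H ≤ C * (Real.log n) ^ ((3 : ℝ) / 2) * (Real.log (Real.log n + 2)) ^ 3 * pExp n H :=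
  pCrit_all_loglog

end Vale.Agent.Results.P064.A0000AllGraphsLogLog
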