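import Vale.Agent.Lib.P064c.Sparse

namespace Vale.Agent.Results.P064.A0000BandColoured

open Vale.Agent.Lib.P064 Vale.Agent.Lib.P064k Vale.Agent.Lib.P064c

/-- There is a universal constant `C` such that for all `n ≥ 2` and every graph `H` with at least
one edge and at most `n` vertices, writing `m = ⌊log₂ (2 (⌊log₂ n⌋ + 1))⌋ + 1`:
(1) for every real `q ≥ p_E(n,H)` with `n q ≥ m` and `(3 n q)^(2 m) < n` we have
`p_c(n,H) ≤ C q log n`; with `q = p_E(n,H)` this is the bound of the first question of the problem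
on that range, which starts at `p_E` of order `log log n / n`;
(2) if `(3 n p_E(n,H))^(2 m) < n` then, with `a = n p_E(n,H)`,
`p_c(n,H) ≤ C (log n) min(max(1, a), max(1, m / a)) p_E(n,H)` and `p_c(n,H) ≤ C (log n) √m p_E(n,H)`. -/
theorem result : ∃ C : ℝ, 0 < C ∧ ∀ (n : ℕ) (V : Type) [Fintype V] (H : SimpleGraph V),
    2 ≤ n → Fintype.card V ≤ n → 1 ≤ numEdges H →
    ∀ m : ℕ, m = Nat.log 2 (2 * (Nat.log 2 n + 1)) + 1 →
    (∀ q : ℝ, pExp n H ≤ q → (m : ℝ) ≤ n * q → (3 * (n : ℝ) * q) ^ (2 * m) < n →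
      pCrit n H ≤ C * q * Real.log n) ∧
    ((3 * (n : ℝ) * pExp n H) ^ (2 * m) < n →
      pCrit n H ≤ C * Real.log n *
        min (max 1 ((n : ℝ) * pExp n H)) (max 1 ((m : ℝ) / ((n : ℝ) * pExp n H))) * pExp n H ∧
      pCrit n H ≤ C * Real.log n * Real.sqrt m * pExp n H) := by
  have hC := constS_big
  refine ⟨constS, by linarith, ?_⟩
  intro n V _ H hn hV hE m hm
  have hn' : (1 : ℝ) < n := by exact_mod_cast (by omega : 1 < n)
  have hL : 0 < Real.log n := Real.log_pos hn'
  have hn0 : (0 : ℝ) < n := by linarith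
  obtain ⟨hp0', _, hp'⟩ := pExp_mem (H := H) hV
  obtain ⟨hp0, _⟩ := hyp_double hV hE hp0' hp'
  constructor
  · intro q hq h1 h2
    subst hm
    have h3 := pCrit_uni' hn hV hE hq h1 h2
    refine h3.trans ?_
    have hq0 : 0 < q := lt_of_lt_of_le hp0 hq
    have h4 : 0 ≤ q * Real.log n := by positivity
    calc 20736 * constW * q * Real.log n = 20736 * constW * (q * Real.log n) := by ring
      _ ≤ constS * (q * Real.log n) := mul_le_mul_of_nonneg_right constS_ge1 h4
      _ = _ := by ring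
  · intro h
    have h1 := pCrit_sparse hn hV hE hm h
    refine ⟨h1, h1.trans ?_⟩
    have hm1 : 1 ≤ m := by omega
    have h2 := min_le_sqrt (a := (n : ℝ) * pExp n H) (by positivity) hm1
    refine mul_le_mul_of_nonneg_right ?_ hp0.le
    exact mul_le_mul_of_nonneg_left h2 (by positivity)

end Vale.Agent.Results.P064.A0000BandColoured
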