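import Vale.Agent.Lib.P064r.Band3

namespace Vale.Agent.Results.P064.A0000BandLowDegree

open Vale.Agent.Lib.P064 Vale.Agent.Lib.P064k Vale.Agent.Lib.P064r

/-- There is `C` such that for all `n ≥ 2` and every graph `H` with at least one edge and at most `n`
vertices and with `a = n p_E(n,H) ≤ log n`, one has
`p_c(n,H) ≤ C (log n) min(max(1, a), (log n)/a) p_E(n,H)`. -/
theorem result : ∃ C : ℝ, 0 < C ∧
    ∀ (n : ℕ) (V : Type) [Fintype V] (H : SimpleGraph V),
    2 ≤ n → Fintype.card V ≤ n → 1 ≤ numEdges H →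
    (n : ℝ) * pExp n H ≤ Real.log n →
    pCrit n H ≤ C * Real.log n *
      min (max 1 ((n : ℝ) * pExp n H)) (Real.log n / ((n : ℝ) * pExp n H)) * pExp n H :=
  ⟨constLow, constLow_pos, fun _ _ _ _ hn hV hE hA => pCrit_low hn hV hE hA⟩

end Vale.Agent.Results.P064.A0000BandLowDegree
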