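import Vale.Agent.Lib.P064r.Main2

namespace Vale.Agent.Results.P064.A0000PcResonanceFree

open Vale.Agent.Lib.P064 Vale.Agent.Lib.P064k Vale.Agent.Lib.P064r

/-- There is a universal `C` such that: for integer `E ≥ 2`, `δ ∈ (0,1]`, `θ' ∈ (0,1/2]`, and every
graph `H` with at least one edge and at most `n` vertices and every density `q ≥ 2 p_E(n,H)`,
`q ≥ 1/n`, such that `|s log n - e log (1/q)| ≥ θ' log n` for all integers `1 ≤ s ≤ e < E` (that is,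
`q` is not close to `n^{-s/e}`), one has
`p_c(n,H) ≤ C (E + 1/δ) (1/θ')^2 (log n)^{1 + 1/E + δ} q`. -/
theorem result : ∃ C : ℝ, 0 < C ∧ ∀ (E : ℕ) (δ θ' : ℝ), 2 ≤ E → 0 < δ → δ ≤ 1 →
    0 < θ' → θ' ≤ 1 / 2 → ∀ (n : ℕ) (V : Type) [Fintype V] (H : SimpleGraph V) (q : ℝ),
    2 ≤ n → Fintype.card V ≤ n → 1 ≤ numEdges H → 2 * pExp n H ≤ q → 1 / (n : ℝ) ≤ q →
    (∀ s e : ℕ, 1 ≤ s → s ≤ e → e < E →
      θ' * Real.log n ≤ |(s : ℝ) * Real.log n - (e : ℝ) * Real.log (1 / q)|) →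
    pCrit n H ≤ C * ((E : ℝ) + 1 / δ) * (1 / θ') ^ 2 * (Real.log n) ^ (1 + 1 / (E : ℝ) + δ) * q :=
  pCrit_resonance_free

end Vale.Agent.Results.P064.A0000PcResonanceFree
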