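import Vale.Agent.Lib.P064k.MainSmall

namespace Vale.Agent.Results.P064.A000PcFiveThirds

open Vale.Agent.Lib.P064 Vale.Agent.Lib.P064k

/-- There is a universal constant `C` such that for all `n ≥ 2` and every graph `H` with at least
one edge and at most `n` vertices, `p_c(n,H) ≤ C (log n)^{5/3} p_E(n,H)`. -/
theorem result : ∃ C : ℝ, 0 < C ∧ ∀ (n : ℕ) (V : Type) [Fintype V] (H : SimpleGraph V),
    2 ≤ n → Fintype.card V ≤ n → 1 ≤ numEdges H →
    pCrit n H ≤ C * (Real.log n) ^ ((5 : ℝ) / 3) * pExp n H := by
  refine ⟨82944 * constH + 3456 * constC + 8064 * constC, ?_, ?_⟩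
  · have h1 := constC_pos
    have h2 : 0 < constH := by
      have := constH_ge
      linarith
    positivity
  · intro n V _ H hn hV hE
    exact pCrit_five_thirds hn hV hE

end Vale.Agent.Results.P064.A000PcFiveThirds
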