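import Vale.Agent.Lib.P064k.MainUni

namespace Vale.Agent.Results.P064.A00QOneSparseRange

open Vale.Agent.Lib.P064 Vale.Agent.Lib.P064k

/-- There is a universal constant `C` such that for all `n ≥ 2`, every graph `H` with at least one
edge and at most `n` vertices, and every real `q ≥ p_E(n,H)` with `q ≥ log n / n` and
`(3 n q)^(2 m) < n`, where `m = ⌊log₂ (2 (⌊log₂ n⌋ + 1))⌋ + 1`, we have `p_c(n,H) ≤ C q log n`.
Taking `q = p_E(n,H)` this is the bound of the first question of the problem on that range. -/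
theorem result : ∃ C : ℝ, 0 < C ∧ ∀ (n : ℕ) (V : Type) [Fintype V] (H : SimpleGraph V) (q : ℝ),
    2 ≤ n → Fintype.card V ≤ n → 1 ≤ numEdges H → pExp n H ≤ q → Real.log n / n ≤ q →
    (3 * (n : ℝ) * q) ^ (2 * (Nat.log 2 (2 * (Nat.log 2 n + 1)) + 1)) < n →
    pCrit n H ≤ C * q * Real.log n := by
  refine ⟨20736 * constU, ?_, ?_⟩
  · have := constU_ge
    linarith
  · intro n V _ H q hn hV hE hqE hq1 hnum
    exact pCrit_uni hn hV hE hqE hq1 hnum

end Vale.Agent.Results.P064.A00QOneSparseRange
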