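import Vale.Agent.Lib.P064.Tok7

namespace Vale.Agent.Results.P064.AllGraphsLogLoss

open Vale.Agent.Lib.P064

/-- There is a universal constant `C` such that, for all `n ≥ 2`, every graph `H` on at most `n`
vertices and every density `q > 0`: if every subgraph of `H` has expected count at least one in
`G(n,q)`, then for every subgraph `F` of `H`, the number of copies of `F` in `H` is at most the
expected number of copies of `F` in `G(n, min 1 (C (log n) q))`. -/
theorem result : ∃ C : ℝ, 0 < C ∧ ∀ (n : ℕ) (V : Type) [Fintype V] (H : SimpleGraph V) (q : ℝ),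
    2 ≤ n → Fintype.card V ≤ n → 0 < q →
    (∀ F : H.Subgraph, 1 ≤ expCopies n q F.coe) →
    ∀ F : H.Subgraph,
      (H.copyCount F.coe : ℝ) ≤ expCopies n (min 1 (C * Real.log n * q)) F.coe := by
  refine ⟨3 * constC, ?_, ?_⟩
  · have := constC_pos
    positivity
  · intro n V _ H q hn hV hq hyp F
    classical
    exact copyCount_le_reallog hn hV hq hyp F.coe

end Vale.Agent.Results.P064.AllGraphsLogLoss
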