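import Vale.Agent.Lib.P064.Tok7

namespace Vale.Agent.Results.P064.AllGraphsRefinedLoss

open Vale.Agent.Lib.P064

/-- There is a universal constant `C` such that, for all `n ≥ 1`, every graph `H` on at most `n`
vertices and every density `q > 0`: if every subgraph of `H` has expected count at least one in
`G(n,q)`, then for every graph `F` with `v` vertices and `e` edges, the number of copies of `F` in
`H` is at most the expected number of copies of `F` in `G(n, min 1 (C q))` times
`(1 + log₂ n) ^ min v e`. -/
theorem result : ∃ C : ℝ, 0 < C ∧ ∀ (n : ℕ) (V : Type) [Fintype V] (H : SimpleGraph V) (q : ℝ),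
    1 ≤ n → Fintype.card V ≤ n → 0 < q →
    (∀ F : H.Subgraph, 1 ≤ expCopies n q F.coe) →
    ∀ (Z : Type) [Fintype Z] (F : SimpleGraph Z),
      (H.copyCount F : ℝ) ≤ expCopies n (min 1 (C * q)) F *
        ((Nat.log 2 n + 1 : ℕ) : ℝ) ^ (min (Fintype.card Z) (numEdges F)) := by
  refine ⟨constC, constC_pos, ?_⟩
  intro n V _ H q hn hV hq hyp Z _ F
  classical
  exact copyCount_le_tok hn hV hq hyp F

end Vale.Agent.Results.P064.AllGraphsRefinedLoss
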