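import Vale.Agent.Lib.P064r.Band3

namespace Vale.Agent.Results.P064.AllGraphsThreeHalves

open Vale.Agent.Lib.P064 Vale.Agent.Lib.P064k Vale.Agent.Lib.P064r

/-- For every `δ > 0` there is `C` such that for all `n ≥ 2` and every graph `H` with at least one
edge and at most `n` vertices, `p_c(n,H) ≤ C (log n)^{3/2+δ} p_E(n,H)`. -/
theorem result (δ : ℝ) (hδ : 0 < δ) : ∃ C : ℝ, 0 < C ∧
    ∀ (n : ℕ) (V : Type) [Fintype V] (H : SimpleGraph V),
    2 ≤ n → Fintype.card V ≤ n → 1 ≤ numEdges H →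
    pCrit n H ≤ C * (Real.log n) ^ ((3 : ℝ) / 2 + δ) * pExp n H :=
  pCrit_all_three_halves hδ

end Vale.Agent.Results.P064.AllGraphsThreeHalves
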