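import Vale.Agent.Lib.P064.Gen9

namespace Vale.Agent.Results.P064.ForestInAnyGraph

open Vale.Agent.Lib.P064

/-- There is a universal constant `L` such that, for every graph `H` on at most `n` vertices and
every density `q`, if every subgraph of `H` has expected count at least one in `G(n,q)`, then for
every subgraph `F` of `H` which is a forest, the number of copies of `F` in `H` is at most the
expected number of copies of `F` in `G(n, min 1 (L q))`. -/
theorem result : ∃ L : ℝ, 0 < L ∧ ∀ (n : ℕ) (V : Type) [Fintype V] (H : SimpleGraph V) (q : ℝ),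
    1 ≤ n → Fintype.card V ≤ n → 0 < q →
    (∀ F : H.Subgraph, 1 ≤ expCopies n q F.coe) →
    ∀ F : H.Subgraph, F.coe.IsAcyclic →
      (H.copyCount F.coe : ℝ) ≤ expCopies n (min 1 (L * q)) F.coe := by
  refine ⟨constL', ?_, ?_⟩
  · unfold constL'
    linarith [constK_pos]
  · intro n V _ H q hn hV hq hyp F hF
    classical
    exact copyCount_le_expCopies_general (by omega) hV hq (oBound_of_hyp hq hyp) F.coe hF

end Vale.Agent.Results.P064.ForestInAnyGraph
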